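import Vale.Agent.Lib.P100.System
import Vale.Agent.Lib.P100.Witness

/-!
Hénon-Lane-Emden system `-Δ u = |x|^A v^p`, `-Δ v = |x|^B u^q` on `ℝ^n ∖ {0}`: there is no
positive entire solution when `n = 2` (for all real weights `A`, `B`), and none in any dimension
`n ≥ 2` when `A ≤ -2` or `B ≤ -2`.
-/

open InnerProductSpace Laplacian

namespace Vale.Agent.Results.P100.DegenerateRanges

/-- Let `n ≥ 2`, `p, q > 0` and `A, B` real, with `n = 2` or `A ≤ -2` or `B ≤ -2`. Then there is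
no pair of functions `u, v` on `ℝ^n` that are `C^2` on `ℝ^n ∖ {0}`, continuous on `ℝ^n`, positive
everywhere, and satisfy `-Δ u = |x|^A v^p` and `-Δ v = |x|^B u^q` at every `x ≠ 0`. -/
theorem result (n : ℕ) (hn : 2 ≤ n) (p q A B : ℝ) (hp : 0 < p) (hq : 0 < q)
    (hdeg : n = 2 ∨ A ≤ -2 ∨ B ≤ -2)
    (u v : EuclideanSpace ℝ (Fin n) → ℝ)
    (hu : ContDiffOn ℝ 2 u {x | x ≠ 0}) (hv : ContDiffOn ℝ 2 v {x | x ≠ 0})
    (huc : Continuous u) (hvc : Continuous v)
    (hupos : ∀ x, 0 < u x) (hvpos : ∀ x, 0 < v x)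
    (h1 : ∀ x, x ≠ 0 → -Δ u x = ‖x‖ ^ A * v x ^ p)
    (h2 : ∀ x, x ≠ 0 → -Δ v x = ‖x‖ ^ B * u x ^ q) : False := by
  by_cases h2n : n = 2
  · subst h2n
    exact Vale.Agent.Lib.P100.planar_equation p A u v hu hupos hvpos h1
  · have h3 : 3 ≤ n := by omega
    rcases hdeg with h | h | h
    · exact h2n h
    · exact Vale.Agent.Lib.P100.singular_equation n h3 p A hp h u v hu huc.continuousAt
        hvc.continuousAt hupos (hvpos 0) h1
    · exact Vale.Agent.Lib.P100.singular_equation n h3 q B hq h v u hv hvc.continuousAt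
        huc.continuousAt hvpos (hupos 0) h2

/-- The hypotheses of `result` other than `hdeg` are satisfiable: for `n = 3`, `A = B = 0` and
the critical exponents `p = q = 5` (outside the ranges covered by `result`), the functions
`u = v = 3^(1/4) * (1 + |x|^2)^(-1/2)` satisfy all of them. -/
theorem witness : ∃ u v : EuclideanSpace ℝ (Fin 3) → ℝ,
    ContDiffOn ℝ 2 u {x | x ≠ 0} ∧ ContDiffOn ℝ 2 v {x | x ≠ 0} ∧
    Continuous u ∧ Continuous v ∧ (∀ x, 0 < u x) ∧ (∀ x, 0 < v x) ∧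
    (∀ x, x ≠ 0 → -Δ u x = ‖x‖ ^ (0 : ℝ) * v x ^ (5 : ℝ)) ∧
    (∀ x, x ≠ 0 → -Δ v x = ‖x‖ ^ (0 : ℝ) * u x ^ (5 : ℝ)) :=
  ⟨Vale.Agent.Lib.P100.bubble, Vale.Agent.Lib.P100.bubble,
    Vale.Agent.Lib.P100.bubble_contDiff.contDiffOn, Vale.Agent.Lib.P100.bubble_contDiff.contDiffOn,
    Vale.Agent.Lib.P100.bubble_contDiff.continuous, Vale.Agent.Lib.P100.bubble_contDiff.continuous,
    Vale.Agent.Lib.P100.bubble_pos, Vale.Agent.Lib.P100.bubble_pos,
    fun x _ => Vale.Agent.Lib.P100.bubble_equation x,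
    fun x _ => Vale.Agent.Lib.P100.bubble_equation x⟩

end Vale.Agent.Results.P100.DegenerateRanges
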